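import Mathlib
import Vale.Agent.P323.Z.Step
import Vale.Agent.P323.Z.Tower

/-!
# A4: raw structures

A raw structure is a relational structure on the ambient type `U` (small ordinals as codes).
Inclusions of raw structures are literal. A valid raw structure gives a category `RCat R`.
-/

set_option linter.all false

namespace Vale.Agent.P323.H660

open CategoryTheory Vale.Agent.P323.Z

attribute [instance] Vale.Agent.P323.Z.Step.cat

/-- the ambient type of codes -/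
abbrev U : Type 1 := Ordinal.{0}

/-- raw structures -/
structure Raw : Type 1 where
  Ob : U → Prop
  Hom : U → U → U → Prop
  Id : U → U → Prop
  Comp : U → U → U → U → U → U → Prop

/-- literal inclusion -/
structure Raw.Le (R R' : Raw) : Prop where
  ob : ∀ {x}, R.Ob x → R'.Ob x
  hom : ∀ {x y f}, R.Hom x y f → R'.Hom x y f
  id : ∀ {x f}, R.Id x f → R'.Id x f
  comp : ∀ {x y z f g h}, R.Comp x y z f g h → R'.Comp x y z f g h

theorem Raw.Le.refl (R : Raw) : R.Le R := ⟨fun h => h, fun h => h, fun h => h, fun h => h⟩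

theorem Raw.Le.trans {R R' R'' : Raw} (h : R.Le R') (h' : R'.Le R'') : R.Le R'' :=
  ⟨fun k => h'.ob (h.ob k), fun k => h'.hom (h.hom k), fun k => h'.id (h.id k),
    fun k => h'.comp (h.comp k)⟩

/-- the category laws. `Comp x y z f g h`: `f : x ⟶ y`, `g : y ⟶ z`, `h = f ≫ g`. -/
class Raw.Valid (R : Raw) : Prop where
  hom_src : ∀ {x y f}, R.Hom x y f → R.Ob x
  hom_tgt : ∀ {x y f}, R.Hom x y f → R.Ob y
  id_ex : ∀ {x}, R.Ob x → ∃ f, R.Id x f
  id_hom : ∀ {x f}, R.Id x f → R.Hom x x f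
  id_uniq : ∀ {x f g}, R.Id x f → R.Id x g → f = g
  comp_ex : ∀ {x y z f g}, R.Hom x y f → R.Hom y z g → ∃ h, R.Comp x y z f g h
  comp_l : ∀ {x y z f g h}, R.Comp x y z f g h → R.Hom x y f
  comp_r : ∀ {x y z f g h}, R.Comp x y z f g h → R.Hom y z g
  comp_hom : ∀ {x y z f g h}, R.Comp x y z f g h → R.Hom x z h
  comp_uniq : ∀ {x y z f g h h'}, R.Comp x y z f g h → R.Comp x y z f g h' → h = h'
  id_comp : ∀ {x y i f}, R.Id x i → R.Hom x y f → R.Comp x x y i f f
  comp_id : ∀ {x y i f}, R.Id y i → R.Hom x y f → R.Comp x y y f i f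
  assoc : ∀ {w x y z f g h fg gh k}, R.Comp w x y f g fg → R.Comp w y z fg h k →
    R.Comp x y z g h gh → R.Comp w x z f gh k

/-- objects of a raw structure -/
@[ext]
structure RCat (R : Raw) : Type 1 where
  code : U
  ob : R.Ob code

/-- morphisms of a raw structure -/
@[ext]
structure RHom {R : Raw} (X Y : RCat R) : Type 1 where
  code : U
  hom : R.Hom X.code Y.code code

noncomputable instance (R : Raw) [hR : R.Valid] : Category.{1} (RCat R) where
  Hom X Y := RHom X Y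
  id X := ⟨(hR.id_ex X.ob).choose, hR.id_hom (hR.id_ex X.ob).choose_spec⟩
  comp f g := ⟨(hR.comp_ex f.hom g.hom).choose, hR.comp_hom (hR.comp_ex f.hom g.hom).choose_spec⟩
  id_comp {X Y} f := RHom.ext (hR.comp_uniq
    (hR.comp_ex (hR.id_hom (hR.id_ex X.ob).choose_spec) f.hom).choose_spec
    (hR.id_comp (hR.id_ex X.ob).choose_spec f.hom))
  comp_id {X Y} f := RHom.ext (hR.comp_uniq
    (hR.comp_ex f.hom (hR.id_hom (hR.id_ex Y.ob).choose_spec)).choose_spec
    (hR.comp_id (hR.id_ex Y.ob).choose_spec f.hom))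
  assoc {W X Y Z} f g h := RHom.ext (by
    have h1 := (hR.comp_ex f.hom g.hom).choose_spec
    have h2 := (hR.comp_ex (hR.comp_hom h1) h.hom).choose_spec
    have h3 := (hR.comp_ex g.hom h.hom).choose_spec
    have h4 := (hR.comp_ex f.hom (hR.comp_hom h3)).choose_spec
    exact hR.comp_uniq (hR.assoc h1 h2 h3) h4)

section

variable {R : Raw} [hR : R.Valid]

theorem hom_ext {X Y : RCat R} {f g : X ⟶ Y} (h : f.code = g.code) : f = g := RHom.ext h

theorem id_code (X : RCat R) : R.Id X.code (RHom.code (𝟙 X)) := (hR.id_ex X.ob).choose_spec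

theorem comp_code {X Y Z : RCat R} (f : X ⟶ Y) (g : Y ⟶ Z) :
    R.Comp X.code Y.code Z.code f.code g.code (RHom.code (f ≫ g)) :=
  (hR.comp_ex f.hom g.hom).choose_spec

theorem eq_id_of_code {X : RCat R} {f : X ⟶ X} (h : R.Id X.code f.code) : f = 𝟙 X :=
  hom_ext (hR.id_uniq h (id_code X))

theorem comp_eq_of_code {X Y Z : RCat R} {f : X ⟶ Y} {g : Y ⟶ Z} {h : X ⟶ Z}
    (H : R.Comp X.code Y.code Z.code f.code g.code h.code) : f ≫ g = h :=
  hom_ext (hR.comp_uniq (comp_code f g) H)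

end

/-- the inclusion functor -/
noncomputable def incl {R R' : Raw} [R.Valid] [R'.Valid] (h : R.Le R') : RCat R ⥤ RCat R' where
  obj X := ⟨X.code, h.ob X.ob⟩
  map f := ⟨f.code, h.hom f.hom⟩
  map_id X := eq_id_of_code (h.id (id_code X))
  map_comp f g := (comp_eq_of_code (h.comp (comp_code f g))).symm

@[simp] theorem incl_obj_code {R R' : Raw} [R.Valid] [R'.Valid] (h : R.Le R') (X : RCat R) :
    ((incl h).obj X).code = X.code := rfl

@[simp] theorem incl_map_code {R R' : Raw} [R.Valid] [R'.Valid] (h : R.Le R') {X Y : RCat R}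
    (f : X ⟶ Y) : RHom.code ((incl h).map f) = f.code := rfl

/-- a good inclusion: pullbacks are preserved, and (E3) -/
structure Raw.Emb (R R' : Raw) [R.Valid] [R'.Valid] : Prop where
  le : R.Le R'
  pb : ∀ {Z X Y B : RCat R} {p : Z ⟶ X} {q : Z ⟶ Y} {f : X ⟶ B} {g : Y ⟶ B}, IsPB p q f g →
    IsPB ((incl le).map p) ((incl le).map q) ((incl le).map f) ((incl le).map g)
  div : ∀ {X Y Z : RCat R'} (f : X ⟶ Y) (g : Y ⟶ Z), R.Hom Y.code Z.code g.code →
    R.Hom X.code Z.code (RHom.code (f ≫ g)) → R.Hom X.code Y.code f.code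

/-- the poset `ω` -/
def base : Raw where
  Ob x := ∃ n : ℕ, x = (n : Ordinal.{0})
  Hom x y f := ∃ m n : ℕ, m ≤ n ∧ x = (m : Ordinal.{0}) ∧ y = (n : Ordinal.{0}) ∧ f = 0
  Id x f := ∃ n : ℕ, x = (n : Ordinal.{0}) ∧ f = 0
  Comp x y z f g h := ∃ k m n : ℕ, k ≤ m ∧ m ≤ n ∧ x = (k : Ordinal.{0}) ∧
    y = (m : Ordinal.{0}) ∧ z = (n : Ordinal.{0}) ∧ f = 0 ∧ g = 0 ∧ h = 0

/-- the objects `a n` -/
def ra {R : Raw} (h : base.Le R) (n : ℕ) : RCat R := ⟨(n : Ordinal.{0}), h.ob ⟨n, rfl⟩⟩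

/-- the morphisms `ι n` -/
def rι {R : Raw} [R.Valid] (h : base.Le R) (n : ℕ) : ra h n ⟶ ra h (n + 1) :=
  ⟨0, h.hom ⟨n, n + 1, Nat.le_succ n, rfl, by simp [ra], rfl⟩⟩

/-- the codes are bounded -/
def Raw.Bdd (R : Raw) : Prop :=
  ∃ β : U, (∀ x, R.Ob x → x < β) ∧ ∀ x y f, R.Hom x y f → f < β

/-- nice raw structures -/
structure Nice (R : Raw) : Prop where
  valid : R.Valid
  base_le : base.Le R
  bdd : R.Bdd
  stage : IsStage (RCat R) (ra base_le) (rι base_le)

/-- A typed step realised by the raw structures `R ≤ R'`. -/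
structure NextData (R R' : Raw) [R.Valid] [R'.Valid] where
  le : R.Le R'
  S : Type
  [cS : Category.{0} S]
  a : ℕ → S
  ι : ∀ n, a n ⟶ a (n + 1)
  st : Step S a ι
  E : S ⥤ RCat R
  F : st.T ⥤ RCat R'
  E_obj : Function.Bijective E.obj
  E_map : ∀ x y : S, Function.Bijective (fun f : x ⟶ y => E.map f)
  F_obj : Function.Bijective F.obj
  F_map : ∀ x y : st.T, Function.Bijective (fun f : x ⟶ y => F.map f)
  comm_obj : ∀ s : S, (F.obj (st.Φ.obj s)).code = (E.obj s).code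
  comm_map : ∀ {s t : S} (f : s ⟶ t), RHom.code (F.map (st.Φ.map f)) = RHom.code (E.map f)
  E_a : ∀ n, (E.obj (a n)).code = (n : Ordinal.{0})
  E_ι : ∀ n, RHom.code (E.map (ι n)) = 0

/-! ### Statements of the packages -/

/-- (T2a, helper780) -/
def BaseStmt : Prop := Nice base

/-- (T2b, helper780) the raw structure `R` as a category in `Type` -/
def ShrinkStmt : Prop := ∀ (R : Raw) [R.Valid] (hb : base.Le R), R.Bdd →
  IsStage (RCat R) (ra hb) (rι hb) →
  ∃ (S : Type) (_ : Category.{0} S) (a : ℕ → S) (ι : ∀ n, a n ⟶ a (n + 1)) (E : S ⥤ RCat R),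
    IsStage S a ι ∧ Function.Bijective E.obj ∧
    (∀ x y : S, Function.Bijective (fun f : x ⟶ y => E.map f)) ∧
    (∀ n, (E.obj (a n)).code = (n : Ordinal.{0})) ∧ ∀ n, RHom.code (E.map (ι n)) = 0

/-- (T3, helper846) an extension `Φ : S ⥤ T` of the category `S ≅ RCat R` is coded by some
raw structure `R'` containing `R` -/
def CodeStmt : Prop := ∀ (R : Raw) [R.Valid], R.Bdd → ∀ (S T : Type) [Category.{0} S]
  [Category.{0} T] (E : S ⥤ RCat R) (Φ : S ⥤ T), Function.Bijective E.obj →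
  (∀ x y : S, Function.Bijective (fun f : x ⟶ y => E.map f)) →
  Function.Injective Φ.obj → (∀ (x y : S) (f g : x ⟶ y), Φ.map f = Φ.map g → f = g) →
  ∃ (R' : Raw) (_ : R'.Valid) (F : T ⥤ RCat R'), R.Le R' ∧ R'.Bdd ∧
    Function.Bijective F.obj ∧ (∀ x y : T, Function.Bijective (fun f : x ⟶ y => F.map f)) ∧
    (∀ s : S, (F.obj (Φ.obj s)).code = (E.obj s).code) ∧
    ∀ (s t : S) (f : s ⟶ t), RHom.code (F.map (Φ.map f)) = RHom.code (E.map f)

/-! ### Charts: the interface of the transfer (T1, helper436 and helper709) -/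

/-- stage `i` seen from `D` -/
structure Chart (D : Type 1) [Category.{1} D] [TwBase D] (i : Ordinal.{0}) where
  S : Type
  [cS : Category.{0} S]
  a : ℕ → S
  ι : ∀ n, a n ⟶ a (n + 1)
  st : Step S a ι
  F : st.T ⥤ D
  F_inj : Function.Injective F.obj
  F_faithful : ∀ {x y : st.T} {f g : x ⟶ y}, F.map f = F.map g → f = g
  F_mem : ∀ {x y : st.T} (f : x ⟶ y), Mem (i + 1) (F.map f)
  F_obj : ∀ {X : D}, Mem (i + 1) (𝟙 X) → ∃ x, F.obj x = X
  F_full : ∀ {x y : st.T} (g : F.obj x ⟶ F.obj y), Mem (i + 1) g → ∃ f, F.map f = g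
  F_pb : ∀ {z x y b : st.T} {p : z ⟶ x} {q : z ⟶ y} {f : x ⟶ b} {g : y ⟶ b}, IsPB p q f g →
    IsPB (F.map p) (F.map q) (F.map f) (F.map g)
  G_mem : ∀ {x y : S} (f : x ⟶ y), Mem i (F.map (st.Φ.map f))
  G_obj : ∀ {X : D}, Mem i (𝟙 X) → ∃ x, F.obj (st.Φ.obj x) = X
  G_full : ∀ {x y : S} (g : F.obj (st.Φ.obj x) ⟶ F.obj (st.Φ.obj y)), Mem i g →
    ∃ f : x ⟶ y, F.map (st.Φ.map f) = g
  a_obj : ∀ n, F.obj (st.Φ.obj (a n)) = (TwBase.a n : D)
  ι_map : ∀ n, HEq (F.map (st.Φ.map (ι n))) (TwBase.ι n : (TwBase.a n : D) ⟶ TwBase.a (n + 1))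

/-- (T1, helper436 and helper709) -/
def TransferStmt : Prop := ∀ (D : Type 1) [Category.{1} D] [TwBase D],
  (∀ i, Nonempty (Chart D i)) → Nonempty (Tw D)

/-- the one-step theorem (A1-A3) -/
def StepStmt : Prop := ∀ (S : Type) [Category.{0} S] (a : ℕ → S) (ι : ∀ n, a n ⟶ a (n + 1)),
  IsStage S a ι → Nonempty (Step S a ι)

/-- the goal of A4 -/
def TowerStmt : Prop := ∃ (D : Type 1) (_ : Category.{1} D), Nonempty (Tw D)

end Vale.Agent.P323.H660
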