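import Vale.Agent.P323.H660.Next

/-!
# A4: the base stage and shrinking
-/

set_option linter.all false

namespace Vale.Agent.P323.H660

open CategoryTheory Vale.Agent.P323.Z

theorem base_hom {x y f : U} : base.Hom x y f ↔
    ∃ m n : ℕ, m ≤ n ∧ x = (m : Ordinal.{0}) ∧ y = (n : Ordinal.{0}) ∧ f = 0 := Iff.rfl

theorem base_valid : base.Valid where
  hom_src := by
    rintro x y f ⟨m, n, -, rfl, -, -⟩; exact ⟨m, rfl⟩
  hom_tgt := by
    rintro x y f ⟨m, n, -, -, rfl, -⟩; exact ⟨n, rfl⟩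
  id_ex := by
    rintro x ⟨n, rfl⟩; exact ⟨0, n, rfl, rfl⟩
  id_hom := by
    rintro x f ⟨n, rfl, rfl⟩; exact ⟨n, n, le_rfl, rfl, rfl, rfl⟩
  id_uniq := by
    rintro x f g ⟨n, rfl, rfl⟩ ⟨m, -, rfl⟩; rfl
  comp_ex := by
    rintro x y z f g ⟨k, m, hkm, rfl, rfl, rfl⟩ ⟨m', n, hmn, h, rfl, rfl⟩
    have : m = m' := by exact_mod_cast h
    subst this
    exact ⟨0, k, m, n, hkm, hmn, rfl, rfl, rfl, rfl, rfl, rfl⟩
  comp_l := by
    rintro x y z f g h ⟨k, m, n, h1, h2, rfl, rfl, rfl, rfl, rfl, rfl⟩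
    exact ⟨k, m, h1, rfl, rfl, rfl⟩
  comp_r := by
    rintro x y z f g h ⟨k, m, n, h1, h2, rfl, rfl, rfl, rfl, rfl, rfl⟩
    exact ⟨m, n, h2, rfl, rfl, rfl⟩
  comp_hom := by
    rintro x y z f g h ⟨k, m, n, h1, h2, rfl, rfl, rfl, rfl, rfl, rfl⟩
    exact ⟨k, n, h1.trans h2, rfl, rfl, rfl⟩
  comp_uniq := by
    rintro x y z f g h h' ⟨k, m, n, h1, h2, rfl, rfl, rfl, rfl, rfl, rfl⟩
      ⟨k', m', n', -, -, -, -, -, -, -, rfl⟩
    rfl
  id_comp := by
    rintro x y i f ⟨k, rfl, rfl⟩ ⟨m, n, hmn, h, rfl, rfl⟩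
    have : k = m := by exact_mod_cast h
    subst this
    exact ⟨k, k, n, le_rfl, hmn, rfl, rfl, rfl, rfl, rfl, rfl⟩
  comp_id := by
    rintro x y i f ⟨k, rfl, rfl⟩ ⟨m, n, hmn, rfl, h, rfl⟩
    have : k = n := by exact_mod_cast h
    subst this
    exact ⟨m, k, k, hmn, le_rfl, rfl, rfl, rfl, rfl, rfl, rfl⟩
  assoc := by
    rintro w x y z f g h fg gh k ⟨a, b, c, h1, h2, rfl, rfl, rfl, rfl, rfl, rfl⟩
      ⟨a', c', d, h3, h4, e1, e2, rfl, -, rfl, rfl⟩ ⟨b', c'', d', h5, h6, e3, e4, e5, -, -, rfl⟩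
    have : a = a' := by exact_mod_cast e1
    subst this
    have : c = c' := by exact_mod_cast e2
    subst this
    exact ⟨a, b, d, h1, h2.trans h4, rfl, rfl, rfl, rfl, rfl, rfl⟩

instance : base.Valid := base_valid

theorem base_code {X Y : RCat base} (f : X ⟶ Y) : RHom.code f = 0 := by
  obtain ⟨m, n, -, -, -, h⟩ := f.hom
  exact h

theorem base_eq {X Y : RCat base} (f g : X ⟶ Y) : f = g := hom_ext (by rw [base_code, base_code])

/-- **(T2a)** -/
theorem baseStmt : BaseStmt where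
  valid := base_valid
  base_le := Raw.Le.refl base
  bdd := by
    refine ⟨Ordinal.omega0, ?_, ?_⟩
    · rintro x ⟨n, rfl⟩
      exact Ordinal.natCast_lt_omega0 n
    · rintro x y f ⟨m, n, -, -, -, rfl⟩
      exact Ordinal.omega0_pos
  stage := by
    refine ⟨?_, ?_, ?_, ?_⟩
    · intro X Y f
      exact ⟨fun u v _ => base_eq u v⟩
    · intro X Y B f g
      obtain ⟨k, hk⟩ := X.ob
      obtain ⟨l, hl⟩ := Y.ob
      obtain ⟨p1, p2, hp, e1, e2, -⟩ := f.hom
      let Z : RCat base := ⟨((min k l : ℕ) : Ordinal.{0}), ⟨min k l, rfl⟩⟩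
      refine ⟨Z, (⟨0, min k l, k, min_le_left _ _, rfl, hk, rfl⟩ : RHom Z X),
        (⟨0, min k l, l, min_le_right _ _, rfl, hl, rfl⟩ : RHom Z Y), base_eq _ _, ?_⟩
      intro E u v _
      obtain ⟨a, b, hab, ha, hb, -⟩ := u.hom
      obtain ⟨a', c, hac, ha', hc, -⟩ := v.hom
      have h1 : a = a' := by
        have : ((a : ℕ) : Ordinal.{0}) = a' := by rw [← ha, ← ha']
        exact_mod_cast this
      have h2 : b = k := by
        have : ((b : ℕ) : Ordinal.{0}) = k := by rw [← hb, ← hk]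
        exact_mod_cast this
      have h3 : c = l := by
        have : ((c : ℕ) : Ordinal.{0}) = l := by rw [← hc, ← hl]
        exact_mod_cast this
      subst h1 h2 h3
      exact ⟨(⟨0, a, min b c, le_min hab hac, ha, rfl, rfl⟩ : RHom E Z), base_eq _ _,
        base_eq _ _⟩
    · rintro n ⟨h, -⟩
      obtain ⟨a, b, hab, ha, hb, -⟩ := h.hom
      have h1 : n + 1 = a := by
        have : ((n + 1 : ℕ) : Ordinal.{0}) = a := ha
        exact_mod_cast this
      have h2 : n = b := by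
        have : ((n : ℕ) : Ordinal.{0}) = b := hb
        exact_mod_cast this
      omega
    · intro X
      obtain ⟨k, hk⟩ := X.ob
      exact ⟨(⟨0, 0, k, Nat.zero_le _, rfl, hk, rfl⟩ : RHom _ X)⟩

/-! ### Shrinking -/

section

variable (R : Raw) [R.Valid] [Small.{0} (RCat R)] [∀ X Y : RCat R, Small.{0} (X ⟶ Y)]

/-- the shrunk category -/
def Sm : Type := Shrink.{0} (RCat R)

/-- the object of `RCat R` -/
noncomputable def Sm.o (s : Sm R) : RCat R := (equivShrink.{0} (RCat R)).symm s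

noncomputable instance : Category.{0} (Sm R) where
  Hom s t := Shrink.{0} (Sm.o R s ⟶ Sm.o R t)
  id s := equivShrink.{0} _ (𝟙 (Sm.o R s))
  comp f g := equivShrink.{0} _ ((equivShrink.{0} _).symm f ≫ (equivShrink.{0} _).symm g)
  id_comp f := by simp
  comp_id f := by simp
  assoc f g h := by simp

/-- the isomorphism with `RCat R` -/
noncomputable def smE : Sm R ⥤ RCat R where
  obj := Sm.o R
  map {s t} f := (equivShrink.{0} (Sm.o R s ⟶ Sm.o R t)).symm f
  map_id s := (equivShrink.{0} (Sm.o R s ⟶ Sm.o R s)).symm_apply_apply _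
  map_comp {r s t} f g := (equivShrink.{0} (Sm.o R r ⟶ Sm.o R t)).symm_apply_apply _

theorem smE_obj : Function.Bijective (smE R).obj := (equivShrink.{0} (RCat R)).symm.bijective

theorem smE_map (x y : Sm R) : Function.Bijective (fun f : x ⟶ y => (smE R).map f) :=
  (equivShrink.{0} (Sm.o R x ⟶ Sm.o R y)).symm.bijective

end

/-- **(T2b)** -/
theorem shrinkStmt : ShrinkStmt := by
  intro R hv hb hbdd hs
  obtain ⟨β, hβ1, hβ2⟩ := hbdd
  haveI : Small.{0} (RCat R) :=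
    small_of_injective (β := Set.Iio β) (f := fun X => ⟨X.code, hβ1 _ X.ob⟩) (by
      intro X Y h
      exact RCat.ext (congrArg Subtype.val h))
  haveI : ∀ X Y : RCat R, Small.{0} (X ⟶ Y) := fun X Y =>
    small_of_injective (β := Set.Iio β) (f := fun f => ⟨RHom.code f, hβ2 _ _ _ f.hom⟩) (by
      intro f g h
      exact hom_ext (congrArg Subtype.val h))
  have hEo := smE_obj R
  have hEm := smE_map R
  choose a ha using fun n => hEo.2 (ra hb n)
  have hac : ∀ n, ((smE R).obj (a n)).code = (n : Ordinal.{0}) := fun n => by rw [ha]; rfl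
  have hι : ∀ n, ∃ f : a n ⟶ a (n + 1), RHom.code ((smE R).map f) = 0 := by
    intro n
    have h : R.Hom ((smE R).obj (a n)).code ((smE R).obj (a (n + 1))).code 0 := by
      rw [hac, hac]
      exact (rι hb n).hom
    obtain ⟨f, hf⟩ := (hEm _ _).2 (⟨0, h⟩ : (smE R).obj (a n) ⟶ (smE R).obj (a (n + 1)))
    exact ⟨f, by simp only at hf; rw [hf]⟩
  choose ι hιc using hι
  refine ⟨Sm R, inferInstance, a, ι, smE R, ⟨?_, ?_, ?_, ?_⟩, hEo, hEm, hac, hιc⟩
  · intro x y f
    constructor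
    intro e u v huv
    have := hs.mono ((smE R).map f)
    apply (hEm _ _).1
    apply (cancel_mono ((smE R).map f)).mp
    simp only
    rw [← Functor.map_comp, ← Functor.map_comp, huv]
  · intro x y b f g
    obtain ⟨z, p, q, h⟩ := hs.pb ((smE R).map f) ((smE R).map g)
    obtain ⟨z, rfl⟩ := hEo.2 z
    obtain ⟨p, rfl⟩ := (hEm _ _).2 p
    obtain ⟨q, rfl⟩ := (hEm _ _).2 q
    exact ⟨z, p, q, iso_pb_reflect (smE R) hEm h⟩
  · rintro n ⟨h, hh⟩
    apply hs.ι_not n
    refine thru_congr (ha n).symm (ha (n + 1)).symm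
      (rhom_heq (ha n).symm (ha (n + 1)).symm _ ((smE R).map (ι n)) (by rw [hιc]; rfl)) ?_
    exact ⟨(smE R).map h, by rw [← Functor.map_comp, hh, CategoryTheory.Functor.map_id]⟩
  · intro x
    obtain ⟨f⟩ := hs.from_a0 ((smE R).obj x)
    rw [← ha 0] at f
    obtain ⟨f, -⟩ := (hEm _ _).2 f
    exact ⟨f⟩

end Vale.Agent.P323.H660
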