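import Vale.Agent.P323.H660.Base
import Vale.Agent.P323.H846.Code
import Vale.Agent.P323.H436.TransferThm
import Vale.Agent.P323.H14.ExistsStep

/-!
# A4: the tower exists
-/

namespace Vale.Agent.P323.H660

open CategoryTheory Vale.Agent.P323.Z

/-- the one-step theorem -/
theorem stepStmt : StepStmt := fun _ _ _ _ hS => Vale.Agent.P323.H14.exists_step hS

/-- **A4** -/
theorem exists_tower : ∃ (D : Type 1) (_ : Category.{1} D), Nonempty (Tw D) :=
  tower_of_all stepStmt shrinkStmt Vale.Agent.P323.H846.code baseStmt Vale.Agent.P323.Z.transfer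

end Vale.Agent.P323.H660
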