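import Vale.Agent.P323.H660.Tower

/-!
# A4: one step for raw structures, from the typed step, shrinking and coding
-/

set_option linter.all false

namespace Vale.Agent.P323.H660

open CategoryTheory Vale.Agent.P323.Z

section

universe v₁ v₂ u₁ u₂

variable {C : Type u₁} [Category.{v₁} C] {D : Type u₂} [Category.{v₂} D] (F : C ⥤ D)

theorem iso_pb_reflect (hm : ∀ x y : C, Function.Bijective (fun f : x ⟶ y => F.map f))
    {z x y b : C} {p : z ⟶ x} {q : z ⟶ y} {f : x ⟶ b} {g : y ⟶ b}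
    (h : IsPB (F.map p) (F.map q) (F.map f) (F.map g)) : IsPB p q f g := by
  refine ⟨(hm _ _).1 (by simpa using h.1), ?_⟩
  intro e u v huv
  obtain ⟨w, hw1, hw2⟩ := h.2 (F.map u) (F.map v) (by rw [← F.map_comp, ← F.map_comp, huv])
  obtain ⟨w, rfl⟩ := (hm _ _).2 w
  simp only at hw1 hw2
  rw [← F.map_comp] at hw1 hw2
  exact ⟨w, (hm _ _).1 hw1, (hm _ _).1 hw2⟩

theorem iso_mono (ho : Function.Bijective F.obj)
    (hm : ∀ x y : C, Function.Bijective (fun f : x ⟶ y => F.map f)) {x y : C} (f : x ⟶ y)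
    (h : Mono f) : Mono (F.map f) := by
  constructor
  intro e u v huv
  obtain ⟨e, rfl⟩ := ho.2 e
  obtain ⟨u, rfl⟩ := (hm _ _).2 u
  obtain ⟨v, rfl⟩ := (hm _ _).2 v
  simp only at huv ⊢
  rw [← F.map_comp, ← F.map_comp] at huv
  have := (hm _ _).1 huv
  rw [(cancel_mono f).mp this]

theorem isPB_congr {z x y b z' x' y' b' : C} (hz : z = z') (hx : x = x') (hy : y = y')
    (hb : b = b') {p : z ⟶ x} {q : z ⟶ y} {f : x ⟶ b} {g : y ⟶ b} {p' : z' ⟶ x'} {q' : z' ⟶ y'}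
    {f' : x' ⟶ b'} {g' : y' ⟶ b'} (hp : HEq p p') (hq : HEq q q') (hf : HEq f f')
    (hg : HEq g g') (h : IsPB p q f g) : IsPB p' q' f' g' := by
  subst hz hx hy hb
  obtain rfl := eq_of_heq hp
  obtain rfl := eq_of_heq hq
  obtain rfl := eq_of_heq hf
  obtain rfl := eq_of_heq hg
  exact h

theorem thru_congr {x y x' y' : C} (hx : x = x') (hy : y = y') {f : x ⟶ y} {f' : x' ⟶ y'}
    (hf : HEq f f') (h : Thru (𝟙 y') f') : Thru (𝟙 y) f := by
  subst hx hy
  obtain rfl := eq_of_heq hf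
  exact h

end

/-- `NextStmt` from the packages -/
theorem next_of (hStep : StepStmt) (hShrink : ShrinkStmt) (hCode : CodeStmt) : NextStmt := by
  intro R hR
  haveI := hR.valid
  obtain ⟨S, cS, a, ι, E, hS, hEo, hEm, hEa, hEι⟩ := hShrink R hR.base_le hR.bdd hR.stage
  obtain ⟨st⟩ := hStep S a ι hS
  obtain ⟨R', v', F, hle, hbdd, hFo, hFm, hco, hcm⟩ := hCode R hR.bdd S st.T E st.Φ hEo hEm st.inj
    (fun x y f g h => st.faithful h)
  have hb : base.Le R' := hR.base_le.trans hle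
  have ha : ∀ n, F.obj (st.Φ.obj (a n)) = ra hb n := fun n => RCat.ext (by
    rw [hco, hEa]; rfl)
  have hι : ∀ n, HEq (F.map (st.Φ.map (ι n))) (rι hb n) := fun n =>
    rhom_heq (ha n) (ha (n + 1)) _ _ (by rw [hcm, hEι]; rfl)
  have hobj : ∀ s : S, F.obj (st.Φ.obj s) = (incl hle).obj (E.obj s) := fun s => RCat.ext (hco s)
  have hmap : ∀ {s t : S} (f : s ⟶ t),
      HEq (F.map (st.Φ.map f)) ((incl hle).map (E.map f)) := fun {s t} f =>
    rhom_heq (hobj s) (hobj t) _ _ (hcm s t f)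
  have hstage : IsStage (RCat R') (ra hb) (rι hb) := by
    refine ⟨?_, ?_, ?_, ?_⟩
    · intro x y f
      obtain ⟨x, rfl⟩ := hFo.2 x
      obtain ⟨y, rfl⟩ := hFo.2 y
      obtain ⟨f, rfl⟩ := (hFm x y).2 f
      exact iso_mono F hFo hFm f (st.stage.mono f)
    · intro x y b f g
      obtain ⟨x, rfl⟩ := hFo.2 x
      obtain ⟨y, rfl⟩ := hFo.2 y
      obtain ⟨b, rfl⟩ := hFo.2 b
      obtain ⟨f, rfl⟩ := (hFm x b).2 f
      obtain ⟨g, rfl⟩ := (hFm y b).2 g
      obtain ⟨z, p, q, h⟩ := st.stage.pb f g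
      exact ⟨F.obj z, F.map p, F.map q, iso_pb F hFo hFm h⟩
    · intro n hn
      have h1 := thru_congr (ha n) (ha (n + 1)) (hι n) hn
      obtain ⟨k, hk⟩ := h1
      obtain ⟨k, rfl⟩ := (hFm _ _).2 k
      simp only at hk
      rw [← F.map_comp, ← F.map_id] at hk
      exact st.stage.ι_not n ⟨k, (hFm _ _).1 hk⟩
    · intro x
      obtain ⟨x, rfl⟩ := hFo.2 x
      obtain ⟨f⟩ := st.stage.from_a0 x
      have := F.map f
      rw [ha 0] at this
      exact ⟨this⟩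
  have hN : Nice R' := ⟨v', hb, hbdd, hstage⟩
  refine ⟨R', hN, ⟨hle, ?_, ?_⟩, ⟨?_⟩⟩
  · intro Z X Y B p q f g h
    obtain ⟨z, rfl⟩ := hEo.2 Z
    obtain ⟨x, rfl⟩ := hEo.2 X
    obtain ⟨y, rfl⟩ := hEo.2 Y
    obtain ⟨b, rfl⟩ := hEo.2 B
    obtain ⟨p, rfl⟩ := (hEm _ _).2 p
    obtain ⟨q, rfl⟩ := (hEm _ _).2 q
    obtain ⟨f, rfl⟩ := (hEm _ _).2 f
    obtain ⟨g, rfl⟩ := (hEm _ _).2 g
    have h1 : IsPB p q f g := iso_pb_reflect E hEm h
    exact isPB_congr (hobj z) (hobj x) (hobj y) (hobj b) (hmap p) (hmap q) (hmap f) (hmap g)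
      (iso_pb F hFo hFm (st.pb h1))
  · intro X Y Z f g hg hfg
    obtain ⟨x, hx⟩ := hEo.2 ⟨X.code, Raw.Valid.hom_src hfg⟩
    obtain ⟨y, hy⟩ := hEo.2 ⟨Y.code, Raw.Valid.hom_src hg⟩
    obtain ⟨z, hz⟩ := hEo.2 ⟨Z.code, Raw.Valid.hom_tgt hg⟩
    have hx' : (E.obj x).code = X.code := by rw [hx]
    have hy' : (E.obj y).code = Y.code := by rw [hy]
    have hz' : (E.obj z).code = Z.code := by rw [hz]
    obtain rfl : F.obj (st.Φ.obj x) = X := RCat.ext (by rw [hco, hx'])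
    obtain rfl : F.obj (st.Φ.obj y) = Y := RCat.ext (by rw [hco, hy'])
    obtain rfl : F.obj (st.Φ.obj z) = Z := RCat.ext (by rw [hco, hz'])
    rw [hco, hco] at hg hfg ⊢
    obtain ⟨g', hg'⟩ := (hEm y z).2 ⟨_, hg⟩
    obtain ⟨h', hh'⟩ := (hEm x z).2 ⟨_, hfg⟩
    obtain ⟨u, rfl⟩ := (hFm _ _).2 f
    have e1 : RHom.code (E.map g') = RHom.code g := congrArg RHom.code hg'
    have e2 : RHom.code (E.map h') = RHom.code (F.map u ≫ g) := congrArg RHom.code hh'
    have e3 : F.map (st.Φ.map g') = g := hom_ext (by rw [hcm, e1])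
    have e4 : F.map (st.Φ.map h') = F.map u ≫ g := hom_ext (by rw [hcm, e2])
    rw [← e3, ← F.map_comp] at e4
    obtain ⟨k, rfl⟩ := st.div u g' h' ((hFm _ _).1 e4).symm
    change R.Hom _ _ (RHom.code (F.map (st.Φ.map k)))
    rw [hcm]
    exact (E.map k).hom
  · exact { le := hle, S := S, a := a, ι := ι, st := st, E := E, F := F, E_obj := hEo,
            E_map := hEm, F_obj := hFo, F_map := hFm, comm_obj := hco,
            comm_map := fun {s t} f => hcm s t f, E_a := hEa, E_ι := hEι }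

/-- **A4** from all packages -/
theorem tower_of_all (hStep : StepStmt) (hShrink : ShrinkStmt) (hCode : CodeStmt)
    (hB : BaseStmt) (hT : TransferStmt) : TowerStmt :=
  tower_of (next_of hStep hShrink hCode) hB hT

end Vale.Agent.P323.H660
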