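import Vale.Agent.P323.H660.Union

/-!
# A4: the transfinite recursion
-/

set_option linter.all false

namespace Vale.Agent.P323.H660

open CategoryTheory Vale.Agent.P323.Z

/-- one step for raw structures -/
def NextStmt : Prop := ∀ (R : Raw) (hR : Nice R), ∃ (R' : Raw) (hR' : Nice R'),
  @Raw.Emb R R' hR.valid hR'.valid ∧ Nonempty (@NextData R R' hR.valid hR'.valid)

/-- good inclusion, instance free -/
def EmbP (R R' : Raw) : Prop := ∃ (v : R.Valid) (v' : R'.Valid), @Raw.Emb R R' v v'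

theorem EmbP.emb {R R' : Raw} [v : R.Valid] [v' : R'.Valid] (h : EmbP R R') : R.Emb R' := by
  obtain ⟨_, _, h⟩ := h
  exact h

theorem EmbP.trans {R R' R'' : Raw} (h : EmbP R R') (h' : EmbP R' R'') : EmbP R R'' := by
  obtain ⟨v, v', h⟩ := h
  obtain ⟨_, v'', h'⟩ := h'
  exact ⟨v, v'', Raw.Emb.trans h h'⟩

section

variable (H : NextStmt)

open Classical in
/-- the successor step -/
noncomputable def next (R : Raw) : Raw := if h : Nice R then (H R h).choose else R

theorem next_spec {R : Raw} (h : Nice R) : ∃ hR' : Nice (next H R),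
    @Raw.Emb R (next H R) h.valid hR'.valid ∧
      Nonempty (@NextData R (next H R) h.valid hR'.valid) := by
  unfold next
  rw [dif_pos h]
  exact (H R h).choose_spec

/-- the tower of raw structures -/
noncomputable def tw (i : U) : Raw :=
  Ordinal.limitRecOn i base (fun _ R => next H R)
    (fun i _ ih => iUnion (fun j : Set.Iio i => ih j.1 j.2))

theorem tw_zero : tw H 0 = base := Ordinal.limitRecOn_zero ..

theorem tw_succ (i : U) : tw H (i + 1) = next H (tw H i) := Ordinal.limitRecOn_add_one ..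

theorem tw_limit {i : U} (hi : Order.IsSuccLimit i) :
    tw H i = iUnion (fun j : Set.Iio i => tw H j.1) := Ordinal.limitRecOn_limit _ _ _ _ hi

theorem nice_iUnion {I : Type 1} [LinearOrder I] [Nonempty I] (X : I → Raw)
    (hn : ∀ i, Nice (X i)) (he : ∀ i j, i ≤ j → EmbP (X i) (X j)) :
    ∃ v : (iUnion X).Valid, ∃ hb : base.Le (iUnion X),
      IsStage (RCat (iUnion X)) (ra hb) (rι hb) ∧ ∀ i, EmbP (X i) (iUnion X) := by
  haveI hv : ∀ i, (X i).Valid := fun i => (hn i).valid
  have hX : ∀ i j, i ≤ j → (X i).Emb (X j) := fun i j hij => (he i j hij).emb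
  haveI hU : (iUnion X).Valid := iUnion_valid X hv fun i j hij => (hX i j hij).le
  have i0 : I := Classical.arbitrary I
  have hb : base.Le (iUnion X) := (hn i0).base_le.trans (le_iUnion X i0)
  exact ⟨hU, hb, iUnion_stage X hX (fun i => (hn i).base_le) (fun i => (hn i).stage) hb,
    fun i => ⟨hv i, hU, iUnion_emb X hX i⟩⟩

theorem tw_all (hB : BaseStmt) (i : U) :
    Nice (tw H i) ∧ ∀ j ≤ i, EmbP (tw H j) (tw H i) := by
  induction i using Ordinal.limitRecOn with
  | zero =>
    rw [tw_zero]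
    refine ⟨hB, fun j hj => ?_⟩
    have : j = 0 := nonpos_iff_eq_zero.mp hj
    subst this
    rw [tw_zero]
    haveI := Nice.valid hB
    exact ⟨inferInstance, inferInstance, Raw.Emb.refl base⟩
  | add_one i ih =>
    obtain ⟨h1, h2⟩ := ih
    obtain ⟨h3, h4, -⟩ := next_spec H h1
    rw [tw_succ]
    refine ⟨h3, fun j hj => ?_⟩
    rcases hj.lt_or_eq with hj | rfl
    · exact (h2 j (Order.lt_add_one_iff.mp hj)).trans ⟨h1.valid, h3.valid, h4⟩
    · rw [tw_succ]
      haveI := h3.valid
      exact ⟨inferInstance, inferInstance, Raw.Emb.refl _⟩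
  | limit i hi ih =>
    have hpos : (0 : U) < i := hi.bot_lt
    haveI : Nonempty (Set.Iio i) := ⟨⟨0, hpos⟩⟩
    have hn : ∀ j : Set.Iio i, Nice (tw H j.1) := fun j => (ih j.1 j.2).1
    have he : ∀ j k : Set.Iio i, j ≤ k → EmbP (tw H j.1) (tw H k.1) :=
      fun j k hjk => (ih k.1 k.2).2 j.1 hjk
    obtain ⟨v, hb, hs, hU⟩ := nice_iUnion (fun j : Set.Iio i => tw H j.1) hn he
    rw [tw_limit H hi]
    refine ⟨⟨v, hb, iUnion_bdd _ fun j => (hn j).bdd, hs⟩, fun j hj => ?_⟩
    rcases hj.lt_or_eq with hj | rfl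
    · exact hU ⟨j, hj⟩
    · rw [tw_limit H hi]
      exact ⟨v, v, Raw.Emb.refl _⟩

end

/-! ### Functors bijective on objects and morphisms -/

section

universe v₁ v₂ u₁ u₂

variable {C : Type u₁} [Category.{v₁} C] {D : Type u₂} [Category.{v₂} D] (F : C ⥤ D)

theorem iso_pb (ho : Function.Bijective F.obj)
    (hm : ∀ x y : C, Function.Bijective (fun f : x ⟶ y => F.map f)) {z x y b : C} {p : z ⟶ x}
    {q : z ⟶ y} {f : x ⟶ b} {g : y ⟶ b} (h : IsPB p q f g) :
    IsPB (F.map p) (F.map q) (F.map f) (F.map g) := by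
  refine ⟨by rw [← F.map_comp, ← F.map_comp, h.1], ?_⟩
  intro e u v huv
  obtain ⟨e, rfl⟩ := ho.2 e
  obtain ⟨u, rfl⟩ := (hm _ _).2 u
  obtain ⟨v, rfl⟩ := (hm _ _).2 v
  simp only at huv ⊢
  rw [← F.map_comp, ← F.map_comp] at huv
  obtain ⟨w, hw1, hw2⟩ := h.2 u v ((hm _ _).1 huv)
  exact ⟨F.map w, by rw [← F.map_comp, hw1], by rw [← F.map_comp, hw2]⟩

end

theorem rhom_heq {R : Raw} [R.Valid] {X X' Y Y' : RCat R} (hX : X = X') (hY : Y = Y')
    (f : X ⟶ Y) (g : X' ⟶ Y') (h : RHom.code f = RHom.code g) : HEq f g := by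
  subst hX hY
  exact heq_of_eq (hom_ext h)

/-! ### The final category -/

section

variable (H : NextStmt) (hB : BaseStmt)

/-- the union of the tower -/
noncomputable def rawD : Raw := iUnion (fun i : U => tw H i)

include hB in
theorem rawD_spec : ∃ v : (rawD H).Valid, ∃ hb : base.Le (rawD H),
      IsStage (RCat (rawD H)) (ra hb) (rι hb) ∧ ∀ i, EmbP (tw H i) (rawD H) :=
  nice_iUnion (fun i : U => tw H i) (fun i => (tw_all H hB i).1)
    (fun i j hij => (tw_all H hB j).2 i hij)

/-- the `TwBase` structure on the final category -/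
@[reducible] noncomputable def twBase [hv : (rawD H).Valid] (hb : base.Le (rawD H))
    (hs : IsStage (RCat (rawD H)) (ra hb) (rι hb)) : TwBase (RCat (rawD H)) where
  Mem i {x y} f := (tw H i).Hom x.code y.code (RHom.code f)
  mono f := hs.mono f
  mem_src := by
    intro i x y f h
    haveI := (tw_all H hB i).1.valid
    have he : (tw H i).Emb (rawD H) := ((rawD_spec H hB).choose_spec.choose_spec.2 i).emb
    have hx : (tw H i).Ob x.code := Raw.Valid.hom_src h
    have : 𝟙 x = (incl he.le).map (𝟙 (⟨x.code, hx⟩ : RCat (tw H i))) := by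
      rw [CategoryTheory.Functor.map_id]; rfl
    rw [this]
    exact RHom.hom (𝟙 (⟨x.code, hx⟩ : RCat (tw H i)))
  mem_tgt := by
    intro i x y f h
    haveI := (tw_all H hB i).1.valid
    have he : (tw H i).Emb (rawD H) := ((rawD_spec H hB).choose_spec.choose_spec.2 i).emb
    have hx : (tw H i).Ob y.code := Raw.Valid.hom_tgt h
    have : 𝟙 y = (incl he.le).map (𝟙 (⟨y.code, hx⟩ : RCat (tw H i))) := by
      rw [CategoryTheory.Functor.map_id]; rfl
    rw [this]
    exact RHom.hom (𝟙 (⟨y.code, hx⟩ : RCat (tw H i)))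
  mem_comp := by
    intro i x y z f g hf hg
    haveI := (tw_all H hB i).1.valid
    have he : (tw H i).Emb (rawD H) := ((rawD_spec H hB).choose_spec.choose_spec.2 i).emb
    let x' : RCat (tw H i) := ⟨x.code, Raw.Valid.hom_src hf⟩
    let y' : RCat (tw H i) := ⟨y.code, Raw.Valid.hom_tgt hf⟩
    let z' : RCat (tw H i) := ⟨z.code, Raw.Valid.hom_tgt hg⟩
    let f' : x' ⟶ y' := ⟨f.code, hf⟩
    let g' : y' ⟶ z' := ⟨g.code, hg⟩
    have h1 : RHom.code (f ≫ g) = RHom.code (f' ≫ g') := comp_code_le he.le f' g'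
    rw [h1]
    exact RHom.hom (f' ≫ g')
  mem_mono := by
    intro i j x y f hij h
    haveI := (tw_all H hB i).1.valid
    haveI := (tw_all H hB j).1.valid
    exact (((tw_all H hB j).2 i hij).emb).le.hom h
  mem_div := by
    intro i x y z f g hfg hg
    haveI := (tw_all H hB i).1.valid
    have he : (tw H i).Emb (rawD H) := ((rawD_spec H hB).choose_spec.choose_spec.2 i).emb
    exact he.div f g hg hfg
  mem_lim := by
    intro i hi x y f h
    rw [tw_limit H hi] at h
    obtain ⟨j, hj⟩ := h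
    exact ⟨j.1, j.2, hj⟩
  mem_ex := by
    intro x y f
    exact f.hom
  small := by
    intro i
    haveI := (tw_all H hB i).1.valid
    obtain ⟨β, hβ1, hβ2⟩ := (tw_all H hB i).1.bdd
    refine small_of_injective (β := Set.Iio β × Set.Iio β × Set.Iio β)
      (f := fun f => (⟨f.1.1.code, hβ1 _ (Raw.Valid.hom_src f.2)⟩,
        ⟨f.1.2.1.code, hβ1 _ (Raw.Valid.hom_tgt f.2)⟩, ⟨RHom.code f.1.2.2, hβ2 _ _ _ f.2⟩)) ?_
    rintro ⟨⟨x, y, f⟩, hf⟩ ⟨⟨x', y', f'⟩, hf'⟩ h
    have h1 := congrArg Prod.fst h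
    have h2 := congrArg (fun z => Prod.fst (Prod.snd z)) h
    have h3 := congrArg (fun z => Prod.snd (Prod.snd z)) h
    have hx : x = x' := RCat.ext (congrArg (fun z : Set.Iio β => z.1) h1)
    have hy : y = y' := RCat.ext (congrArg (fun z : Set.Iio β => z.1) h2)
    subst hx hy
    have : f = f' := hom_ext (congrArg (fun z : Set.Iio β => z.1) h3)
    subst this
    rfl
  pb := by
    intro i x y b f g hf hg
    haveI := (tw_all H hB i).1.valid
    have he : (tw H i).Emb (rawD H) := ((rawD_spec H hB).choose_spec.choose_spec.2 i).emb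
    let x' : RCat (tw H i) := ⟨x.code, Raw.Valid.hom_src hf⟩
    let y' : RCat (tw H i) := ⟨y.code, Raw.Valid.hom_src hg⟩
    let b' : RCat (tw H i) := ⟨b.code, Raw.Valid.hom_tgt hg⟩
    let f' : x' ⟶ b' := ⟨f.code, hf⟩
    let g' : y' ⟶ b' := ⟨g.code, hg⟩
    obtain ⟨z, p, q, h⟩ := (tw_all H hB i).1.stage.pb f' g'
    exact ⟨(incl he.le).obj z, (incl he.le).map p, (incl he.le).map q, p.hom, q.hom, he.pb h⟩
  a n := ra hb n
  ι n := rι hb n
  ι_mem := by
    intro n
    rw [tw_zero]
    exact ⟨n, n + 1, Nat.le_succ n, rfl, by simp [ra], rfl⟩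
  ι_not n := hs.ι_not n
  from_a0 x := hs.from_a0 x

theorem exists_chart [hv : (rawD H).Valid] (hb : base.Le (rawD H))
    (hs : IsStage (RCat (rawD H)) (ra hb) (rι hb)) (i : U) :
    letI := twBase H hB hb hs
    Nonempty (Chart (RCat (rawD H)) i) := by
  letI := twBase H hB hb hs
  haveI hvi := (tw_all H hB i).1.valid
  obtain ⟨hn, hemb, ⟨nd⟩⟩ := next_spec H (tw_all H hB i).1
  haveI hvn := hn.valid
  have hsucc : tw H (i + 1) = next H (tw H i) := tw_succ H i
  have he : (next H (tw H i)).Emb (rawD H) := by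
    have := (rawD_spec H hB).choose_spec.choose_spec.2 (i + 1)
    rw [hsucc] at this
    exact this.emb
  have hei : (tw H i).Emb (rawD H) := ((rawD_spec H hB).choose_spec.choose_spec.2 i).emb
  obtain ⟨le, S, a, ι, st, E, F, E_obj, E_map, F_obj, F_map, comm_obj, comm_map, E_a, E_ι⟩ := nd
  have hMem1 : ∀ {x y : RCat (rawD H)} (f : x ⟶ y),
      Mem (i + 1) f ↔ (next H (tw H i)).Hom x.code y.code (RHom.code f) := by
    intro x y f
    rw [← hsucc]
    exact Iff.rfl
  have hMem0 : ∀ {x y : RCat (rawD H)} (f : x ⟶ y),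
      Mem i f ↔ (tw H i).Hom x.code y.code (RHom.code f) := fun f => Iff.rfl
  refine ⟨{ S := S, a := a, ι := ι, st := st, F := F ⋙ incl he.le, F_inj := ?_, F_faithful := ?_,
            F_mem := ?_, F_obj := ?_, F_full := ?_, F_pb := ?_, G_mem := ?_, G_obj := ?_,
            G_full := ?_, a_obj := ?_, ι_map := ?_ }⟩
  · intro x y h
    apply F_obj.1
    apply RCat.ext
    have h' := congrArg RCat.code h
    exact h'
  · intro x y f g h
    exact (F_map x y).1 (incl_injective he.le h)
  · intro x y f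
    rw [hMem1]
    exact (F.map f).hom
  · intro X hX
    rw [hMem1] at hX
    obtain ⟨x, hx⟩ := F_obj.2 ⟨X.code, Raw.Valid.hom_src hX⟩
    refine ⟨x, RCat.ext ?_⟩
    have h' := congrArg RCat.code hx
    exact h'
  · intro x y g hg
    rw [hMem1] at hg
    obtain ⟨f, hf⟩ := (F_map x y).2 ⟨RHom.code g, hg⟩
    refine ⟨f, hom_ext ?_⟩
    have h' := congrArg RHom.code hf
    exact h'
  · intro z x y b p q f g h
    exact he.pb (iso_pb F F_obj F_map h)
  · intro x y f
    rw [hMem0]
    change (tw H i).Hom (F.obj (st.Φ.obj x)).code (F.obj (st.Φ.obj y)).code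
      (RHom.code (F.map (st.Φ.map f)))
    rw [comm_obj, comm_obj, comm_map]
    exact (E.map f).hom
  · intro X hX
    rw [hMem0] at hX
    obtain ⟨x, hx⟩ := E_obj.2 ⟨X.code, Raw.Valid.hom_src hX⟩
    refine ⟨x, RCat.ext ?_⟩
    change (F.obj (st.Φ.obj x)).code = X.code
    rw [comm_obj]
    exact congrArg RCat.code hx
  · intro x y g hg
    rw [hMem0] at hg
    change (tw H i).Hom (F.obj (st.Φ.obj x)).code (F.obj (st.Φ.obj y)).code (RHom.code g) at hg
    rw [comm_obj, comm_obj] at hg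
    obtain ⟨f, hf⟩ := (E_map x y).2 ⟨RHom.code g, hg⟩
    refine ⟨f, hom_ext ?_⟩
    change RHom.code (F.map (st.Φ.map f)) = RHom.code g
    rw [comm_map]
    exact congrArg RHom.code hf
  · intro n
    apply RCat.ext
    change (F.obj (st.Φ.obj (a n))).code = _
    rw [comm_obj, E_a]
    rfl
  · intro n
    apply rhom_heq
    · apply RCat.ext
      change (F.obj (st.Φ.obj (a n))).code = _
      rw [comm_obj, E_a]
      rfl
    · apply RCat.ext
      change (F.obj (st.Φ.obj (a (n + 1)))).code = _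
      rw [comm_obj, E_a]
      rfl
    · change RHom.code (F.map (st.Φ.map (ι n))) = _
      rw [comm_map, E_ι]
      rfl

include hB H in
/-- **A4**, from the packages -/
theorem tower_of (hT : TransferStmt) : TowerStmt := by
  obtain ⟨v, hb, hs, -⟩ := rawD_spec H hB
  letI := twBase H hB hb hs
  exact ⟨RCat (rawD H), inferInstance, hT _ fun i => exists_chart H hB hb hs i⟩

end

end Vale.Agent.P323.H660
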