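import Vale.Agent.P323.H660.Raw

/-!
# A4: unions of chains of raw structures
-/

set_option linter.all false

namespace Vale.Agent.P323.H660

open CategoryTheory Vale.Agent.P323.Z

/-- union of a family -/
def iUnion {I : Type 1} (X : I → Raw) : Raw where
  Ob x := ∃ i, (X i).Ob x
  Hom x y f := ∃ i, (X i).Hom x y f
  Id x f := ∃ i, (X i).Id x f
  Comp x y z f g h := ∃ i, (X i).Comp x y z f g h

theorem le_iUnion {I : Type 1} (X : I → Raw) (i : I) : (X i).Le (iUnion X) :=
  ⟨fun h => ⟨i, h⟩, fun h => ⟨i, h⟩, fun h => ⟨i, h⟩, fun h => ⟨i, h⟩⟩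

theorem iUnion_valid {I : Type 1} [LinearOrder I] (X : I → Raw) (hv : ∀ i, (X i).Valid)
    (hle : ∀ i j, i ≤ j → (X i).Le (X j)) : (iUnion X).Valid where
  hom_src := by
    rintro x y f ⟨i, h⟩; exact ⟨i, (hv i).hom_src h⟩
  hom_tgt := by
    rintro x y f ⟨i, h⟩; exact ⟨i, (hv i).hom_tgt h⟩
  id_ex := by
    rintro x ⟨i, h⟩
    obtain ⟨f, hf⟩ := (hv i).id_ex h
    exact ⟨f, i, hf⟩
  id_hom := by
    rintro x f ⟨i, h⟩; exact ⟨i, (hv i).id_hom h⟩
  id_uniq := by
    rintro x f g ⟨i, h⟩ ⟨j, k⟩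
    exact (hv (max i j)).id_uniq ((hle i _ (le_max_left _ _)).id h)
      ((hle j _ (le_max_right _ _)).id k)
  comp_ex := by
    rintro x y z f g ⟨i, h⟩ ⟨j, k⟩
    obtain ⟨l, hl⟩ := (hv (max i j)).comp_ex ((hle i _ (le_max_left _ _)).hom h)
      ((hle j _ (le_max_right _ _)).hom k)
    exact ⟨l, _, hl⟩
  comp_l := by
    rintro x y z f g h ⟨i, hi⟩; exact ⟨i, (hv i).comp_l hi⟩
  comp_r := by
    rintro x y z f g h ⟨i, hi⟩; exact ⟨i, (hv i).comp_r hi⟩
  comp_hom := by
    rintro x y z f g h ⟨i, hi⟩; exact ⟨i, (hv i).comp_hom hi⟩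
  comp_uniq := by
    rintro x y z f g h h' ⟨i, hi⟩ ⟨j, hj⟩
    exact (hv (max i j)).comp_uniq ((hle i _ (le_max_left _ _)).comp hi)
      ((hle j _ (le_max_right _ _)).comp hj)
  id_comp := by
    rintro x y k f ⟨i, hi⟩ ⟨j, hj⟩
    exact ⟨max i j, (hv (max i j)).id_comp ((hle i _ (le_max_left _ _)).id hi)
      ((hle j _ (le_max_right _ _)).hom hj)⟩
  comp_id := by
    rintro x y k f ⟨i, hi⟩ ⟨j, hj⟩
    exact ⟨max i j, (hv (max i j)).comp_id ((hle i _ (le_max_left _ _)).id hi)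
      ((hle j _ (le_max_right _ _)).hom hj)⟩
  assoc := by
    rintro w x y z f g h fg gh k ⟨i, hi⟩ ⟨j, hj⟩ ⟨l, hl⟩
    have a1 : i ≤ max i (max j l) := le_max_left _ _
    have a2 : j ≤ max i (max j l) := (le_max_left _ _).trans (le_max_right _ _)
    have a3 : l ≤ max i (max j l) := (le_max_right _ _).trans (le_max_right _ _)
    exact ⟨max i (max j l), (hv _).assoc ((hle i _ a1).comp hi) ((hle j _ a2).comp hj)
      ((hle l _ a3).comp hl)⟩

/-- the functor is determined by codes: composition in the small structure -/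
theorem comp_code_le {R R' : Raw} [R.Valid] [hR' : R'.Valid] (h : R.Le R') {X Y Z : RCat R}
    (f : X ⟶ Y) (g : Y ⟶ Z) :
    RHom.code ((incl h).map f ≫ (incl h).map g) = RHom.code (f ≫ g) := by
  rw [← Functor.map_comp]; rfl

/-- equality of compositions can be checked in the small structure -/
theorem comp_eq_of_incl {R R' : Raw} [R.Valid] [R'.Valid] (h : R.Le R') {X Y Z W : RCat R}
    {f : X ⟶ Y} {g : Y ⟶ Z} {f' : X ⟶ W} {g' : W ⟶ Z}
    (H : (incl h).map f ≫ (incl h).map g = (incl h).map f' ≫ (incl h).map g') :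
    f ≫ g = f' ≫ g' := by
  apply hom_ext
  rw [← comp_code_le h, ← comp_code_le h, H]

theorem incl_injective {R R' : Raw} [R.Valid] [R'.Valid] (h : R.Le R') {X Y : RCat R}
    {f g : X ⟶ Y} (H : (incl h).map f = (incl h).map g) : f = g :=
  hom_ext (show RHom.code ((incl h).map f) = RHom.code ((incl h).map g) by rw [H])

section

variable {I : Type 1} [LinearOrder I] (X : I → Raw) [hv : ∀ i, (X i).Valid]
  (hX : ∀ i j, i ≤ j → (X i).Emb (X j))

/-- three indices -/
theorem max3 (i j k : I) : ∃ m, i ≤ m ∧ j ≤ m ∧ k ≤ m :=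
  ⟨max i (max j k), le_max_left _ _, (le_max_left _ _).trans (le_max_right _ _),
    (le_max_right _ _).trans (le_max_right _ _)⟩

include hX in
theorem iUnion_emb [(iUnion X).Valid] (i : I) : (X i).Emb (iUnion X) where
  le := le_iUnion X i
  pb := by
    intro Z A B C p q f g H
    refine ⟨?_, ?_⟩
    · rw [← Functor.map_comp, ← Functor.map_comp, H.1]
    · intro E u v huv
      obtain ⟨j, hj⟩ := u.hom
      obtain ⟨k, hk⟩ := v.hom
      obtain ⟨m, him, hjm, hkm⟩ := max3 i j k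
      have hE : (X m).Ob E.code := (hv m).hom_src ((hX j m hjm).le.hom hj)
      let E' : RCat (X m) := ⟨E.code, hE⟩
      let u' : E' ⟶ (incl (hX i m him).le).obj A := ⟨u.code, (hX j m hjm).le.hom hj⟩
      let v' : E' ⟶ (incl (hX i m him).le).obj B := ⟨v.code, (hX k m hkm).le.hom hk⟩
      have h1 : u' ≫ (incl (hX i m him).le).map f = v' ≫ (incl (hX i m him).le).map g :=
        comp_eq_of_incl (le_iUnion X m) huv
      obtain ⟨w, hw1, hw2⟩ := ((hX i m him).pb H).2 u' v' h1
      refine ⟨(incl (le_iUnion X m)).map w, ?_, ?_⟩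
      · have := congrArg (incl (le_iUnion X m)).map hw1
        rw [Functor.map_comp] at this
        exact this
      · have := congrArg (incl (le_iUnion X m)).map hw2
        rw [Functor.map_comp] at this
        exact this
  div := by
    intro A B C f g hg hfg
    obtain ⟨j, hj⟩ := f.hom
    have him : i ≤ max i j := le_max_left _ _
    have hjm : j ≤ max i j := le_max_right _ _
    generalize max i j = m at him hjm
    have hA : (X m).Ob A.code := (hv m).hom_src ((hX j m hjm).le.hom hj)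
    have hB : (X m).Ob B.code := (hv m).hom_tgt ((hX j m hjm).le.hom hj)
    have hC : (X m).Ob C.code := (hX i m him).le.ob ((hv i).hom_tgt hg)
    let A' : RCat (X m) := ⟨A.code, hA⟩
    let B' : RCat (X m) := ⟨B.code, hB⟩
    let C' : RCat (X m) := ⟨C.code, hC⟩
    let f' : A' ⟶ B' := ⟨f.code, (hX j m hjm).le.hom hj⟩
    let g' : B' ⟶ C' := ⟨g.code, (hX i m him).le.hom hg⟩
    have h1 : RHom.code (f' ≫ g') = RHom.code (f ≫ g) :=
      (comp_code_le (le_iUnion X m) f' g').symm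
    exact (hX i m him).div f' g' hg (by rw [h1]; exact hfg)

include hX in
theorem iUnion_stage [Nonempty I] [(iUnion X).Valid] (hb : ∀ i, base.Le (X i))
    (hs : ∀ i, IsStage (RCat (X i)) (ra (hb i)) (rι (hb i))) (hbU : base.Le (iUnion X)) :
    IsStage (RCat (iUnion X)) (ra hbU) (rι hbU) where
  mono := by
    intro A B f
    constructor
    intro E u v huv
    obtain ⟨i, hi⟩ := f.hom
    obtain ⟨j, hj⟩ := u.hom
    obtain ⟨k, hk⟩ := v.hom
    obtain ⟨m, him, hjm, hkm⟩ := max3 i j k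
    let A' : RCat (X m) := ⟨A.code, (hv m).hom_src ((hX i m him).le.hom hi)⟩
    let B' : RCat (X m) := ⟨B.code, (hv m).hom_tgt ((hX i m him).le.hom hi)⟩
    let E' : RCat (X m) := ⟨E.code, (hv m).hom_src ((hX j m hjm).le.hom hj)⟩
    let f' : A' ⟶ B' := ⟨f.code, (hX i m him).le.hom hi⟩
    let u' : E' ⟶ A' := ⟨u.code, (hX j m hjm).le.hom hj⟩
    let v' : E' ⟶ A' := ⟨v.code, (hX k m hkm).le.hom hk⟩
    have h1 : u' ≫ f' = v' ≫ f' := comp_eq_of_incl (le_iUnion X m) huv
    have := (hs m).mono f'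
    have h2 : u' = v' := (cancel_mono f').mp h1
    exact congrArg (incl (le_iUnion X m)).map h2
  pb := by
    intro A B C f g
    obtain ⟨i, hi⟩ := f.hom
    obtain ⟨j, hj⟩ := g.hom
    have him : i ≤ max i j := le_max_left _ _
    have hjm : j ≤ max i j := le_max_right _ _
    generalize max i j = m at him hjm
    let A' : RCat (X m) := ⟨A.code, (hv m).hom_src ((hX i m him).le.hom hi)⟩
    let B' : RCat (X m) := ⟨B.code, (hv m).hom_src ((hX j m hjm).le.hom hj)⟩
    let C' : RCat (X m) := ⟨C.code, (hv m).hom_tgt ((hX i m him).le.hom hi)⟩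
    let f' : A' ⟶ C' := ⟨f.code, (hX i m him).le.hom hi⟩
    let g' : B' ⟶ C' := ⟨g.code, (hX j m hjm).le.hom hj⟩
    obtain ⟨z, p, q, h⟩ := (hs m).pb f' g'
    exact ⟨(incl (le_iUnion X m)).obj z, (incl (le_iUnion X m)).map p,
      (incl (le_iUnion X m)).map q, (iUnion_emb X hX m).pb h⟩
  ι_not := by
    rintro n ⟨h, hh⟩
    obtain ⟨m, hm⟩ := h.hom
    let h' : ra (hb m) (n + 1) ⟶ ra (hb m) n := ⟨h.code, hm⟩
    apply (hs m).ι_not n
    refine ⟨h', ?_⟩
    have h1 : (incl (le_iUnion X m)).map (h' ≫ rι (hb m) n) =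
        (incl (le_iUnion X m)).map (𝟙 (ra (hb m) (n + 1))) := by
      rw [CategoryTheory.Functor.map_comp, CategoryTheory.Functor.map_id]
      exact hh
    exact incl_injective _ h1
  from_a0 := by
    intro A
    obtain ⟨m, hm⟩ := A.ob
    let A' : RCat (X m) := ⟨A.code, hm⟩
    obtain ⟨f⟩ := (hs m).from_a0 A'
    exact ⟨(incl (le_iUnion X m)).map f⟩

end

theorem Raw.Emb.refl (R : Raw) [R.Valid] : R.Emb R where
  le := Raw.Le.refl R
  pb := fun h => h
  div := by
    intro A B C f g _ _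
    exact f.hom

theorem Raw.Emb.trans {R R' R'' : Raw} [R.Valid] [R'.Valid] [R''.Valid] (h : R.Emb R')
    (h' : R'.Emb R'') : R.Emb R'' where
  le := h.le.trans h'.le
  pb := fun H => h'.pb (h.pb H)
  div := by
    intro A B C f g hg hfg
    have hB : R'.Ob B.code := h.le.ob (Raw.Valid.hom_src hg)
    have hC : R'.Ob C.code := h.le.ob (Raw.Valid.hom_tgt hg)
    have h1 : R'.Hom A.code B.code f.code := h'.div f g (h.le.hom hg) (h.le.hom hfg)
    have hA : R'.Ob A.code := Raw.Valid.hom_src h1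
    let A' : RCat R' := ⟨A.code, hA⟩
    let B' : RCat R' := ⟨B.code, hB⟩
    let C' : RCat R' := ⟨C.code, hC⟩
    let f' : A' ⟶ B' := ⟨f.code, h1⟩
    let g' : B' ⟶ C' := ⟨g.code, h.le.hom hg⟩
    have h2 : RHom.code (f' ≫ g') = RHom.code (f ≫ g) := (comp_code_le h'.le f' g').symm
    exact h.div f' g' hg (by rw [h2]; exact hfg)

/-- unions of bounded families over small index types are bounded -/
theorem iUnion_bdd {I : Type 1} [Small.{0} I] (X : I → Raw) (hX : ∀ i, (X i).Bdd) :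
    (iUnion X).Bdd := by
  choose β hβ using hX
  have hb : BddAbove (Set.range β) := Ordinal.bddAbove_of_small
  refine ⟨⨆ i, β i, ?_, ?_⟩
  · rintro x ⟨i, hi⟩
    exact lt_of_lt_of_le ((hβ i).1 x hi) (le_ciSup hb i)
  · rintro x y f ⟨i, hi⟩
    exact lt_of_lt_of_le ((hβ i).2 x y f hi) (le_ciSup hb i)

end Vale.Agent.P323.H660
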